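import Vale.Agent.P323.Z.Color

/-!
# Section 8: calculus of colourings, recolouring, coloured amalgams, conservative maps, Lemma C
-/

namespace Vale.Agent.P323.H894

open CategoryTheory Vale.Agent.P323.Z

variable {D : Type 1} [Category.{1} D]

/-! ### Order, union, compatibility -/

theorem le_antisymm {x : D} {p q : Col x} (h : Col.Le p q) (h' : Col.Le q p) : p = q := by
  funext z
  cases hp : p z with
  | some c => exact (h z c hp).symm
  | none =>
    cases hq : q z with
    | none => rfl
    | some c => rw [h' z c hq] at hp; cases hp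

theorem union_eq_some {x : D} {p q : Col x} {z : Dn x} {c : Bool} :
    Col.union p q z = some c ↔ p z = some c ∨ (p z = none ∧ q z = some c) := by
  unfold Col.union
  cases p z <;> simp

theorem union_eq_some_of_compat {x : D} {p q : Col x} (h : Col.Compat p q) {z : Dn x} {c : Bool} :
    Col.union p q z = some c ↔ p z = some c ∨ q z = some c := by
  rw [union_eq_some]
  constructor
  · rintro (h | h)
    · exact Or.inl h
    · exact Or.inr h.2
  · rintro (h1 | h1)
    · exact Or.inl h1
    · cases hp : p z with
      | none => exact Or.inr ⟨rfl, h1⟩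
      | some c' => rw [h z c' c hp h1]; exact Or.inl rfl

theorem le_union_left {x : D} (p q : Col x) : Col.Le p (Col.union p q) :=
  fun _ _ h => union_eq_some.2 (Or.inl h)

theorem le_union_right {x : D} {p q : Col x} (h : Col.Compat p q) : Col.Le q (Col.union p q) :=
  fun _ _ hz => (union_eq_some_of_compat h).2 (Or.inr hz)

theorem union_le {x : D} {p q r : Col x} (hp : Col.Le p r) (hq : Col.Le q r) :
    Col.Le (Col.union p q) r := by
  intro z c h
  rcases union_eq_some.1 h with h | h
  · exact hp z c h
  · exact hq z c h.2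

theorem union_eq_left {x : D} {p q : Col x} (h : Col.Le q p) : Col.union p q = p :=
  le_antisymm (union_le (Col.Le.refl p) h) (le_union_left p q)

theorem union_eq_right {x : D} {p q : Col x} (h : Col.Le p q) : Col.union p q = q := by
  refine le_antisymm (union_le h (Col.Le.refl q)) (le_union_right ?_)
  intro z c c' hp hq
  rw [h z c hp] at hq
  exact Option.some.inj hq

theorem Compat.symm {x : D} {p q : Col x} (h : Col.Compat p q) : Col.Compat q p :=
  fun z c c' h1 h2 => (h z c' c h2 h1).symm

theorem compat_of_le_le {x : D} {p q r : Col x} (hp : Col.Le p r) (hq : Col.Le q r) :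
    Col.Compat p q := by
  intro z c c' h1 h2
  have h3 := hp z c h1
  rw [hq z c' h2] at h3
  exact (Option.some.inj h3).symm

theorem compat_of_le {x : D} {p q : Col x} (h : Col.Le p q) : Col.Compat p q :=
  compat_of_le_le h (Col.Le.refl q)

theorem compat_of_ge {x : D} {p q : Col x} (h : Col.Le q p) : Col.Compat p q :=
  compat_of_le_le (Col.Le.refl p) h

theorem Compat.mono {x : D} {p p' q q' : Col x} (h : Col.Compat p' q') (hp : Col.Le p p')
    (hq : Col.Le q q') : Col.Compat p q :=
  fun z c c' h1 h2 => h z c c' (hp z c h1) (hq z c' h2)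

theorem pull_union {x y : D} (u : x ⟶ y) (p q : Col y) :
    Col.pull u (Col.union p q) = Col.union (Col.pull u p) (Col.pull u q) := rfl

theorem le_iff_eq_some {x : D} {p q : Col x} :
    Col.Le p q ↔ ∀ z c, p z = some c → q z = some c := Iff.rfl

section
variable [TwBase D]

theorem pull_push {x y : D} (u : x ⟶ y) (p : Col x) : Col.pull u (Col.push u p) = p := by
  funext z
  exact Col.push_post u p z

theorem push_le_iff {x y : D} (u : x ⟶ y) (p : Col x) (q : Col y) :
    Col.Le (Col.push u p) q ↔ Col.Le p (Col.pull u q) := by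
  constructor
  · intro h z c hz
    exact h _ c (by rw [Col.push_post]; exact hz)
  · intro h w c hw
    obtain ⟨z, rfl, hz⟩ := (Col.push_eq_some u p w c).1 hw
    exact h z c hz

theorem push_mono {x y : D} (u : x ⟶ y) {p q : Col x} (h : Col.Le p q) :
    Col.Le (Col.push u p) (Col.push u q) := by
  rw [push_le_iff, pull_push]
  exact h

theorem push_comp {x y w : D} (u : x ⟶ y) (v : y ⟶ w) (p : Col x) :
    Col.push (u ≫ v) p = Col.push v (Col.push u p) := by
  apply le_antisymm
  · rw [push_le_iff, Col.pull_comp, pull_push, pull_push]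
    exact Col.Le.refl p
  · rw [push_le_iff, push_le_iff, ← Col.pull_comp, pull_push]
    exact Col.Le.refl p

theorem push_pull_le {x y : D} (u : x ⟶ y) (q : Col y) :
    Col.Le (Col.push u (Col.pull u q)) q := by
  rw [push_le_iff]
  exact Col.Le.refl _

theorem push_id {x : D} (p : Col x) : Col.push (𝟙 x) p = p := by
  apply le_antisymm
  · rw [push_le_iff, Col.pull_id]; exact Col.Le.refl p
  · intro z c h
    exact (Col.push_eq_some _ _ _ _).2 ⟨z, Dn.post_id z, h⟩

/-- base change for a pull-back square -/
theorem pull_push_pb {z x y b : D} {l : z ⟶ x} {r : z ⟶ y} {f : x ⟶ b} {g : y ⟶ b}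
    (h : IsPB l r f g) (q : Col y) :
    Col.pull f (Col.push g q) = Col.push l (Col.pull r q) := by
  apply le_antisymm
  · intro w c hw
    obtain ⟨⟨e, v⟩, hv, hq⟩ := (Col.push_eq_some _ _ _ _).1 hw
    obtain ⟨e', u⟩ := w
    simp only [Dn.post, Sigma.mk.injEq] at hv
    obtain ⟨rfl, hv⟩ := hv
    have hv' := eq_of_heq hv
    obtain ⟨k, hk, hk'⟩ := h.2 u v hv'.symm
    refine (Col.push_eq_some _ _ _ _).2 ⟨⟨e, k⟩, ?_, ?_⟩
    · simp [Dn.post, hk]
    · simp only [Col.pull, Dn.post, hk']
      exact hq
  · rw [push_le_iff, ← Col.pull_comp, h.1, Col.pull_comp]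
    exact (by rw [pull_push]; exact Col.Le.refl _ : Col.Le (Col.pull r q)
      (Col.pull r (Col.pull g (Col.push g q))))

end

/-! ### Small domains -/

theorem sm_of_le {x : D} {p q : Col x} (h : Col.Le p q) (hq : Col.Sm q) : Col.Sm p := by
  unfold Col.Sm at *
  refine small_of_injective (β := {z // q z ≠ none})
    (f := fun z => ⟨z.1, ?_⟩) ?_
  · intro h0
    cases hp : p z.1 with
    | none => exact z.2 hp
    | some c => rw [h z.1 c hp] at h0; cases h0
  · intro a b hab
    exact Subtype.ext (congrArg (fun t => t.1) hab)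

theorem sm_union {x : D} {p q : Col x} (hp : Col.Sm p) (hq : Col.Sm q) :
    Col.Sm (Col.union p q) := by
  classical
  unfold Col.Sm at *
  refine small_of_injective (β := {z // p z ≠ none} ⊕ {z // q z ≠ none})
    (f := fun z => if h : p z.1 ≠ none then Sum.inl ⟨z.1, h⟩ else Sum.inr ⟨z.1, ?_⟩) ?_
  · intro h0
    have h1 : p z.1 = none := by
      by_contra h2
      exact h h2
    apply z.2
    simp [Col.union, h0, h1]
  · intro a b hab
    by_cases ha : p a.1 ≠ none <;> by_cases hb : p b.1 ≠ none
    · simp only [dif_pos ha, dif_pos hb, Sum.inl.injEq, Subtype.mk.injEq] at hab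
      exact Subtype.ext hab
    · simp only [dif_pos ha, dif_neg hb] at hab
      cases hab
    · simp only [dif_neg ha, dif_pos hb] at hab
      cases hab
    · simp only [dif_neg ha, dif_neg hb, Sum.inr.injEq, Subtype.mk.injEq] at hab
      exact Subtype.ext hab

theorem sm_pull [TwBase D] {x y : D} (u : x ⟶ y) {q : Col y} (hq : Col.Sm q) :
    Col.Sm (Col.pull u q) := by
  unfold Col.Sm at *
  refine small_of_injective (β := {z // q z ≠ none})
    (f := fun z => ⟨Dn.post u z.1, z.2⟩) ?_
  intro a b hab
  exact Subtype.ext (Dn.post_injective u (congrArg (fun t => t.1) hab))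

theorem sm_push [TwBase D] {x y : D} (u : x ⟶ y) {p : Col x} (hp : Col.Sm p) :
    Col.Sm (Col.push u p) := by
  unfold Col.Sm at *
  refine small_of_surjective (α := {z // p z ≠ none})
    (f := fun z => ⟨Dn.post u z.1, by rw [Col.push_post]; exact z.2⟩) ?_
  rintro ⟨w, hw⟩
  cases h : Col.push u p w with
  | none => exact absurd h hw
  | some c =>
    obtain ⟨z, rfl, hz⟩ := (Col.push_eq_some u p w c).1 h
    exact ⟨⟨z, by rw [hz]; simp⟩, rfl⟩

/-- the empty colouring -/
def emp (x : D) : Col x := fun _ => none

theorem sm_emp (x : D) : Col.Sm (emp x) := by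
  unfold Col.Sm
  have : IsEmpty {z // emp x z ≠ none} := ⟨fun z => z.2 rfl⟩
  infer_instance

theorem emp_le {x : D} (p : Col x) : Col.Le (emp x) p := fun _ _ h => by cases h

end Vale.Agent.P323.H894
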