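import Vale.Agent.P323.H894.Col

/-!
# Section 8: recolouring, coloured amalgams, conservative maps, Lemma C
-/

namespace Vale.Agent.P323.H894

open CategoryTheory Vale.Agent.P323.Z

variable {D : Type 1} [Category.{1} D]

/-! ### Gluing two colourings over a pull-back square -/

/-- the glued colouring -/
noncomputable def glue {x y b : D} (f : x ⟶ b) (g : y ⟶ b) (p : Col x) (q : Col y) : Col b :=
  Col.union (Col.push f p) (Col.push g q)

section
variable [TwBase D]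

theorem sm_glue {x y b : D} (f : x ⟶ b) (g : y ⟶ b) {p : Col x} {q : Col y}
    (hp : Col.Sm p) (hq : Col.Sm q) : Col.Sm (glue f g p q) :=
  sm_union (sm_push f hp) (sm_push g hq)

theorem push_compat {z x y b : D} {l : z ⟶ x} {r : z ⟶ y} {f : x ⟶ b} {g : y ⟶ b}
    (h : IsPB l r f g) {p : Col x} {q : Col y} (hc : Col.Compat (Col.pull l p) (Col.pull r q)) :
    Col.Compat (Col.push f p) (Col.push g q) := by
  intro w c c' h1 h2
  obtain ⟨a, rfl, ha⟩ := (Col.push_eq_some _ _ _ _).1 h1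
  have h3 : Col.pull f (Col.push g q) a = some c' := h2
  rw [pull_push_pb h] at h3
  obtain ⟨e, rfl, he⟩ := (Col.push_eq_some _ _ _ _).1 h3
  exact hc e c c' ha he

theorem le_pull_glue_left {x y b : D} (f : x ⟶ b) (g : y ⟶ b) (p : Col x) (q : Col y) :
    Col.Le p (Col.pull f (glue f g p q)) := by
  have := Col.Le.pull f (le_union_left (Col.push f p) (Col.push g q))
  rwa [pull_push] at this

theorem le_pull_glue_right {z x y b : D} {l : z ⟶ x} {r : z ⟶ y} {f : x ⟶ b} {g : y ⟶ b}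
    (h : IsPB l r f g) {p : Col x} {q : Col y} (hc : Col.Compat (Col.pull l p) (Col.pull r q)) :
    Col.Le q (Col.pull g (glue f g p q)) := by
  have := Col.Le.pull g (le_union_right (push_compat h hc))
  rwa [pull_push] at this

theorem glue_le {x y b : D} {f : x ⟶ b} {g : y ⟶ b} {p : Col x} {q : Col y} {s : Col b}
    (h1 : Col.Le p (Col.pull f s)) (h2 : Col.Le q (Col.pull g s)) :
    Col.Le (glue f g p q) s :=
  union_le ((push_le_iff _ _ _).2 h1) ((push_le_iff _ _ _).2 h2)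

theorem pull_glue_left {z x y b : D} {l : z ⟶ x} {r : z ⟶ y} {f : x ⟶ b} {g : y ⟶ b}
    (h : IsPB l r f g) (p : Col x) (q : Col y) :
    Col.pull f (glue f g p q) = Col.union p (Col.push l (Col.pull r q)) := by
  unfold glue
  rw [pull_union, pull_push, pull_push_pb h]

theorem pull_glue_right {z x y b : D} {l : z ⟶ x} {r : z ⟶ y} {f : x ⟶ b} {g : y ⟶ b}
    (h : IsPB l r f g) (p : Col x) (q : Col y) :
    Col.pull g (glue f g p q) = Col.union (Col.push r (Col.pull l p)) q := by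
  unfold glue
  rw [pull_union, pull_push, pull_push_pb h.symm]

/-- the glued colouring is conservative over the left leg -/
theorem pull_glue_left_eq {z x y b : D} {l : z ⟶ x} {r : z ⟶ y} {f : x ⟶ b} {g : y ⟶ b}
    (h : IsPB l r f g) {p : Col x} {q : Col y} (hc : Col.Le (Col.pull r q) (Col.pull l p)) :
    Col.pull f (glue f g p q) = p := by
  rw [pull_glue_left h]
  exact union_eq_left ((push_le_iff _ _ _).2 hc)

/-- the glued colouring is conservative over the right leg -/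
theorem pull_glue_right_eq {z x y b : D} {l : z ⟶ x} {r : z ⟶ y} {f : x ⟶ b} {g : y ⟶ b}
    (h : IsPB l r f g) {p : Col x} {q : Col y} (hc : Col.Le (Col.pull l p) (Col.pull r q)) :
    Col.pull g (glue f g p q) = q := by
  rw [pull_glue_right h]
  exact union_eq_right ((push_le_iff _ _ _).2 hc)

end

/-! ### Recolouring -/

/-- the same object with another colouring -/
abbrev rc (x : D) (q : Col x) (hq : Col.Sm q) : CObj D := ⟨x, q, hq⟩

theorem rc_x (x : D) (q : Col x) (hq : Col.Sm q) : (rc x q hq).x = x := rfl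
theorem rc_p (x : D) (q : Col x) (hq : Col.Sm q) : (rc x q hq).p = q := rfl

/-- make a coloured morphism -/
def mkHom {X Y : CObj D} (u : X.x ⟶ Y.x) (h : Col.Le X.p (Col.pull u Y.p)) : X ⟶ Y :=
  (⟨u, h⟩ : CHom X Y)

@[simp] theorem mkHom_u {X Y : CObj D} (u : X.x ⟶ Y.x) (h : Col.Le X.p (Col.pull u Y.p)) :
    (mkHom u h).u = u := rfl

theorem hom_le {X Y : CObj D} (f : X ⟶ Y) : Col.Le X.p (Col.pull f.u Y.p) := CHom.le f

/-- the identity as a morphism to a stronger recolouring -/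
def toRc {X : CObj D} {q : Col X.x} (hq : Col.Sm q) (h : Col.Le X.p q) : X ⟶ rc X.x q hq :=
  mkHom (Y := rc X.x q hq) (𝟙 X.x) (fun z c hz => by
    have h1 := h z c hz
    rw [← Col.pull_id q] at h1
    exact h1)

@[simp] theorem toRc_u {X : CObj D} {q : Col X.x} (hq : Col.Sm q) (h : Col.Le X.p q) :
    (toRc hq h).u = 𝟙 X.x := rfl

theorem sm_p (X : CObj D) : Col.Sm X.p := X.sm

instance monoC [TwBase D] {X Y : CObj D} (f : X ⟶ Y) : Mono f :=
  ⟨fun g h hgh => by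
    have := TwBase.mono f.u
    apply chom_ext
    have h' : g.u ≫ f.u = h.u ≫ f.u := congrArg CHom.u hgh
    exact (cancel_mono _).1 h'⟩

/-! ### Conservative maps -/

theorem cons_id (X : CObj D) : Cons (𝟙 X) := Col.pull_id X.p

theorem cons_comp {X Y Z : CObj D} {f : X ⟶ Y} {g : Y ⟶ Z} (hf : Cons f) (hg : Cons g) :
    Cons (f ≫ g) := by
  unfold Cons at *
  rw [comp_u, Col.pull_comp, hg, hf]

theorem cons_of_comp {X Y Z : CObj D} {f : X ⟶ Y} {g : Y ⟶ Z} (h : Cons (f ≫ g)) : Cons f := by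
  unfold Cons at *
  apply le_antisymm
  · rw [← h, comp_u, Col.pull_comp]
    exact Col.Le.pull _ (hom_le g)
  · exact hom_le f

/-! ### Coloured amalgams -/

/-- A coloured amalgam of `u : X ⟶ Y`, `v : X ⟶ Z`. -/
structure CAm {X Y Z : CObj D} (u : X ⟶ Y) (v : X ⟶ Z) where
  W : CObj D
  j1 : Y ⟶ W
  j2 : Z ⟶ W
  comm : u ≫ j1 = v ≫ j2
  pb : IsPB u.u v.u j1.u j2.u
  col : W.p = glue j1.u j2.u Y.p Z.p

/-- the coloured amalgam at stage `i` -/
noncomputable def mkCAm [Tw D] {X Y Z : CObj D} (u : X ⟶ Y) (v : X ⟶ Z) (i : Ordinal.{0})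
    (hu : Mem i u.u) (hv : Mem i v.u)
    (hc : Col.Compat (Col.pull u.u Y.p) (Col.pull v.u Z.p)) : CAm u v where
  W := ⟨Tw.am i u.u v.u hu hv,
    glue (Tw.jl i u.u v.u hu hv) (Tw.jr i u.u v.u hu hv) Y.p Z.p,
    sm_glue _ _ Y.sm Z.sm⟩
  j1 := mkHom (Tw.jl i u.u v.u hu hv) (le_pull_glue_left _ _ _ _)
  j2 := mkHom (Tw.jr i u.u v.u hu hv) (le_pull_glue_right (Tw.K1 i u.u v.u hu hv) hc)
  comm := chom_ext (Tw.K0 i u.u v.u hu hv)
  pb := Tw.K1 i u.u v.u hu hv
  col := rfl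

/-- two morphisms have a common stage -/
theorem mem_common [TwBase D] {x y x' y' : D} (f : x ⟶ y) (g : x' ⟶ y') :
    ∃ i : Ordinal.{0}, Mem i f ∧ Mem i g := by
  obtain ⟨i, hi⟩ := TwBase.mem_ex f
  obtain ⟨j, hj⟩ := TwBase.mem_ex g
  exact ⟨max i j, TwBase.mem_mono (le_max_left _ _) hi, TwBase.mem_mono (le_max_right _ _) hj⟩

/-- **Amalgamation**: compatible colours. -/
theorem exists_cam [Tw D] {X Y Z : CObj D} (u : X ⟶ Y) (v : X ⟶ Z)
    (hc : Col.Compat (Col.pull u.u Y.p) (Col.pull v.u Z.p)) : Nonempty (CAm u v) := by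
  obtain ⟨i, hu, hv⟩ := mem_common u.u v.u
  exact ⟨mkCAm u v i hu hv hc⟩

section
variable [TwBase D] {X Y Z : CObj D} {u : X ⟶ Y} {v : X ⟶ Z}

theorem CAm.cons1 (A : CAm u v) (h : Col.Le (Col.pull v.u Z.p) (Col.pull u.u Y.p)) :
    Cons A.j1 := by
  unfold Cons
  rw [A.col]
  exact pull_glue_left_eq A.pb h

theorem CAm.cons2 (A : CAm u v) (h : Col.Le (Col.pull u.u Y.p) (Col.pull v.u Z.p)) :
    Cons A.j2 := by
  unfold Cons
  rw [A.col]
  exact pull_glue_right_eq A.pb h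

/-- if `v` is conservative, the left leg is conservative -/
theorem CAm.cons1_of_cons (A : CAm u v) (h : Cons v) : Cons A.j1 := by
  apply A.cons1
  have h' : Col.pull v.u Z.p = X.p := h
  rw [h']
  exact hom_le u

/-- if `u` is conservative, the right leg is conservative -/
theorem CAm.cons2_of_cons (A : CAm u v) (h : Cons u) : Cons A.j2 := by
  apply A.cons2
  have h' : Col.pull u.u Y.p = X.p := h
  rw [h']
  exact hom_le v

end

/-- amalgamation over a conservative left map -/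
theorem exists_cam_cons [Tw D] {X Y Z : CObj D} (u : X ⟶ Y) (v : X ⟶ Z) (hu : Cons u) :
    ∃ A : CAm u v, Cons A.j2 := by
  have h' : Col.pull u.u Y.p = X.p := hu
  obtain ⟨A⟩ := exists_cam u v (by rw [h']; exact compat_of_le (hom_le v))
  exact ⟨A, A.cons2_of_cons hu⟩

/-- amalgamation over the weaker object `rc` : `v` is defined on `X`, `u` on `X` with the same
underlying object; the version used in the text: `pull u Y.p ≤ pull v Z.p` gives an amalgam
conservative over `Z`. -/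
theorem exists_cam_le [Tw D] {X Y Z : CObj D} (u : X ⟶ Y) (v : X ⟶ Z)
    (h : Col.Le (Col.pull u.u Y.p) (Col.pull v.u Z.p)) :
    ∃ A : CAm u v, Cons A.j2 := by
  obtain ⟨A⟩ := exists_cam u v (compat_of_le h)
  exact ⟨A, A.cons2 h⟩

/-- Raw version of `exists_cam_le`: only the underlying maps `a : d ⟶ y`, `b : d ⟶ z` are given. -/
theorem exists_glue_le [Tw D] {d : D} {Y Z : CObj D} (a : d ⟶ Y.x) (b : d ⟶ Z.x)
    (h : Col.Le (Col.pull a Y.p) (Col.pull b Z.p)) :
    ∃ (W : CObj D) (j1 : Y ⟶ W) (j2 : Z ⟶ W), a ≫ j1.u = b ≫ j2.u ∧ IsPB a b j1.u j2.u ∧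
      W.p = glue j1.u j2.u Y.p Z.p ∧ Cons j2 := by
  have ha : Col.Sm (Col.pull a Y.p) := sm_pull a Y.sm
  let X : CObj D := rc d (Col.pull a Y.p) ha
  let u : X ⟶ Y := mkHom (X := X) a (Col.Le.refl _)
  let v : X ⟶ Z := mkHom (X := X) b h
  obtain ⟨A, hA⟩ := exists_cam_le u v h
  exact ⟨A.W, A.j1, A.j2, congrArg CHom.u A.comm, A.pb, A.col, hA⟩

/-- Raw amalgamation with compatible colours. -/
theorem exists_glue [Tw D] {d : D} {Y Z : CObj D} (a : d ⟶ Y.x) (b : d ⟶ Z.x)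
    (h : Col.Compat (Col.pull a Y.p) (Col.pull b Z.p)) :
    ∃ (W : CObj D) (j1 : Y ⟶ W) (j2 : Z ⟶ W), a ≫ j1.u = b ≫ j2.u ∧ IsPB a b j1.u j2.u ∧
      W.p = glue j1.u j2.u Y.p Z.p := by
  let X : CObj D := rc d (emp d) (sm_emp d)
  let u : X ⟶ Y := mkHom (X := X) a (emp_le _)
  let v : X ⟶ Z := mkHom (X := X) b (emp_le _)
  obtain ⟨A⟩ := exists_cam u v h
  exact ⟨A.W, A.j1, A.j2, congrArg CHom.u A.comm, A.pb, A.col⟩

/-! ### Lemma C -/

/-- **Lemma C** for a predicate on the extensions of `W`. -/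
theorem lemmaC [Tw D] {W : CObj D} (R : ∀ {V : CObj D}, (W ⟶ V) → Prop)
    (mono : ∀ {V V' : CObj D} (f : W ⟶ V) (g : V ⟶ V'), R f → R (f ≫ g))
    (loc : (∀ {V : CObj D} (f : W ⟶ V), ∃ (V' : CObj D) (g : V ⟶ V'), R (f ≫ g)) → R (𝟙 W))
    {W' : CObj D} (w : W ⟶ W') (hw : Cons w) (h : R w) : R (𝟙 W) := by
  apply loc
  intro V f
  obtain ⟨A, -⟩ := exists_cam_cons w f hw
  refine ⟨A.W, A.j2, ?_⟩
  rw [← A.comm]
  exact mono w A.j1 h

/-- A stable relation between morphisms with source `B`, `B'`. -/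
structure StableRel {B B' : CObj D} (R : ∀ {W : CObj D}, (B ⟶ W) → (B' ⟶ W) → Prop) : Prop where
  mono : ∀ {W W' : CObj D} (e1 : B ⟶ W) (e2 : B' ⟶ W) (w : W ⟶ W'), R e1 e2 →
    R (e1 ≫ w) (e2 ≫ w)
  loc : ∀ {W : CObj D} (e1 : B ⟶ W) (e2 : B' ⟶ W),
    (∀ {W' : CObj D} (w : W ⟶ W'), ∃ (W'' : CObj D) (w' : W' ⟶ W''),
      R (e1 ≫ w ≫ w') (e2 ≫ w ≫ w')) → R e1 e2

/-- **Lemma C** for stable relations. -/
theorem StableRel.lemmaC [Tw D] {B B' : CObj D} {R : ∀ {W : CObj D}, (B ⟶ W) → (B' ⟶ W) → Prop}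
    (hR : StableRel R) {W W' : CObj D} (e1 : B ⟶ W) (e2 : B' ⟶ W) (w : W ⟶ W') (hw : Cons w)
    (h : R (e1 ≫ w) (e2 ≫ w)) : R e1 e2 := by
  have := H894.lemmaC (W := W) (fun {V} f => R (e1 ≫ f) (e2 ≫ f))
    (fun {V V'} f g hf => by
      have := hR.mono _ _ g hf
      simpa only [Category.assoc] using this)
    (fun hloc => by
      have := hR.loc e1 e2 hloc
      simpa only [Category.comp_id] using this) w hw h
  simpa only [Category.comp_id] using this

/-- Lemma C, iff form. -/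
theorem StableRel.iff_of_cons [Tw D] {B B' : CObj D}
    {R : ∀ {W : CObj D}, (B ⟶ W) → (B' ⟶ W) → Prop}
    (hR : StableRel R) {W W' : CObj D} (e1 : B ⟶ W) (e2 : B' ⟶ W) (w : W ⟶ W') (hw : Cons w) :
    R (e1 ≫ w) (e2 ≫ w) ↔ R e1 e2 :=
  ⟨hR.lemmaC e1 e2 w hw, hR.mono e1 e2 w⟩

/-- Equality of morphisms of `D` after composition is stable. -/
theorem stable_eq [TwBase D] {B B' : CObj D} {a : D} (s : a ⟶ B.x) (t : a ⟶ B'.x) :
    StableRel (fun {W : CObj D} (e1 : B ⟶ W) (e2 : B' ⟶ W) => s ≫ e1.u = t ≫ e2.u) where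
  mono e1 e2 w h := by
    simp only [comp_u, ← Category.assoc]
    rw [h]
  loc {W} e1 e2 h := by
    obtain ⟨W'', w', hw⟩ := h (𝟙 W)
    simp only [comp_u, Category.id_comp, ← Category.assoc] at hw
    have := TwBase.mono w'.u
    exact (cancel_mono _).1 hw

/-- Two conservative extension steps: extend `e : (z, k^* r') ⟶ W` along a conservative
`k : Z ⟶ Z'` to `Z' ⟶ W'` with `W ⟶ W'` conservative. -/
theorem extend_cons [Tw D] {Z Z' W : CObj D} (k : Z ⟶ Z') (hk : Cons k) (e : Z ⟶ W) :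
    ∃ (W' : CObj D) (j : W ⟶ W') (e' : Z' ⟶ W'), Cons j ∧ k ≫ e' = e ≫ j ∧
      IsPB k.u e.u e'.u j.u := by
  obtain ⟨A, hA⟩ := exists_cam_cons k e hk
  exact ⟨A.W, A.j2, A.j1, hA, A.comm, A.pb⟩

end Vale.Agent.P323.H894
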